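import Vale.Agent.P002b.Main

/-! Potential density of integral points on character varieties of curves. -/

namespace Vale.Agent.Results.P002.Curves

open Matrix Vale.Agent.P002b.Stmt

/-- The value at `ρ` of an integer polynomial in the matrix entries `ρ(γ)_{ij}`. -/
noncomputable def evalRep {G A : Type} [Group G] [CommRing A] {r : ℕ}
    (ρ : G →* SpecialLinearGroup (Fin r) A) (P : MvPolynomial (G × Fin r × Fin r) ℤ) : A :=
  MvPolynomial.aeval (fun v => (ρ v.1 : Matrix (Fin r) (Fin r) A) v.2.1 v.2.2) P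

/-- `P` defines an element of `O(Rep_r)^{SL_r}`: it is conjugation invariant over every ring. -/
def Invariant {G : Type} [Group G] {r : ℕ} (P : MvPolynomial (G × Fin r × Fin r) ℤ) : Prop :=
  ∀ (A : Type) [CommRing A] (ρ : G →* SpecialLinearGroup (Fin r) A)
    (h : SpecialLinearGroup (Fin r) A),
    evalRep ((MulAut.conj h).toMonoidHom.comp ρ) P = evalRep ρ P

/-- The class of `ρ` lies in `M_r(O_L)`: all invariants take values in the integers of `L`. -/
def IntegralPoint {G : Type} [Group G] {r : ℕ} (L : IntermediateField ℚ ℂ) (ρ : SLRep G r) :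
    Prop :=
  ∀ P, Invariant P → evalRep ρ P ∈ L ∧ IsIntegral ℤ (evalRep ρ P)

/-- The regular functions on `M_r(ℂ)`, as functions of a representation. -/
def characterFunctions (G : Type) [Group G] (r : ℕ) : Submodule ℂ (SLRep G r → ℂ) :=
  Submodule.span ℂ {f | ∃ P, Invariant P ∧ f = fun ρ => evalRep ρ P}

lemma evalRep_mem {G : Type} [Group G] {r : ℕ} (P : MvPolynomial (G × Fin r × Fin r) ℤ) :
    (fun ρ : SLRep G r => evalRep ρ P) ∈ regularFunctions G r := by
  induction P using MvPolynomial.induction_on with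
  | C a => convert intCast_mem (regularFunctions G r) a using 2; simp [evalRep]
  | add p q hp hq => convert add_mem hp hq using 2; simp [evalRep]
  | mul_X p v hp =>
    convert mul_mem hp (Algebra.subset_adjoin ⟨v.1, v.2.1, v.2.2, rfl⟩) using 2; simp [evalRep]

lemma integralPoint {G : Type} [Group G] {r : ℕ} {L : IntermediateField ℚ ℂ} {ρ : SLRep G r}
    (h : IntegralOver L ρ) : IntegralPoint L ρ := by
  intro P hP
  clear hP
  induction P using MvPolynomial.induction_on with
  | C a => simpa [evalRep] using isIntegral_algebraMap (R := ℤ) (A := ℂ) (x := a)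
  | add p q hp hq => simpa [evalRep] using ⟨add_mem hp.1 hq.1, hp.2.add hq.2⟩
  | mul_X p v hp =>
    simpa [evalRep] using ⟨mul_mem hp.1 (h v.1 v.2.1 v.2.2).1, hp.2.mul (h v.1 v.2.1 v.2.2).2⟩

theorem result (g s r : ℕ) (T : Set (Fin s)) (C : Fin s → SpecialLinearGroup (Fin r) ℂ)
    (hC : ∀ j ∈ T, QuasiUnipotent (C j)) :
    ∃ L : IntermediateField ℚ ℂ, FiniteDimensional ℚ L ∧
      ∀ f ∈ characterFunctions (CurveGroup g s) r,
        (∀ ρ ∈ Locus g s r T C, IntegralPoint L ρ → f ρ = 0) → ∀ ρ ∈ Locus g s r T C, f ρ = 0 := by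
  obtain ⟨L, hL, H⟩ := Vale.Agent.P002b.main g s r T C hC
  refine ⟨L, hL, fun f hf h => H f ?_ fun ρ hρ hi => h ρ hρ (integralPoint hi)⟩
  refine (Submodule.span_le (p := (regularFunctions _ r).toSubmodule)).2 ?_ hf
  rintro _ ⟨P, -, rfl⟩
  exact evalRep_mem P

end Vale.Agent.Results.P002.Curves
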