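import Vale.Agent.P002b.Main

/-! Potential density of integral representations of fundamental groups of curves. -/

namespace Vale.Agent.Results.P002.CurvesRep

open Matrix Vale.Agent.P002b.Stmt

theorem result (g s r : ℕ) (T : Set (Fin s)) (C : Fin s → SpecialLinearGroup (Fin r) ℂ)
    (hC : ∀ j ∈ T, QuasiUnipotent (C j)) :
    ∃ L : IntermediateField ℚ ℂ, FiniteDimensional ℚ L ∧
      ∀ f ∈ regularFunctions (CurveGroup g s) r,
        (∀ ρ ∈ Locus g s r T C, IntegralOver L ρ → f ρ = 0) → ∀ ρ ∈ Locus g s r T C, f ρ = 0 :=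
  Vale.Agent.P002b.main g s r T C hC

end Vale.Agent.Results.P002.CurvesRep
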